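import Vale.Agent.P064.PartA

namespace Vale.Agent.P034

open Finset
open scoped Pointwise

set_option linter.unusedSectionVars false

lemma sum_biUnion_le_of_nonneg {β α : Type} [DecidableEq α] (s : Finset β) (t : β → Finset α)
    (f : α → ℝ) (hf : ∀ a, 0 ≤ f a) : ∑ a ∈ s.biUnion t, f a ≤ ∑ i ∈ s, ∑ a ∈ t i, f a := by
  classical
  induction s using Finset.induction_on with
  | empty => simp
  | insert i s hi ih =>
    rw [Finset.biUnion_insert, Finset.sum_insert hi]
    have h := Finset.sum_union_inter (s₁ := t i) (s₂ := s.biUnion t) (f := f)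
    have h2 : 0 ≤ ∑ a ∈ t i ∩ s.biUnion t, f a := Finset.sum_nonneg (fun a _ => hf a)
    linarith

section

variable {G X : Type} [Group G] [Fintype G] [Fintype X] [DecidableEq X] [MulAction G X]

lemma spread_of {K0 : Finset X} {κ : ℝ} (hκ : 0 ≤ κ)
    (hF : ∀ F : Finset X, F ⊆ K0 →
      ((univ.filter (fun g : G => F.image (fun x => g • x) ⊆ K0)).card : ℝ)
        ≤ κ ^ F.card * (Fintype.card G : ℝ)) (S : Finset X) :
    ((univ.filter (fun g : G => S ⊆ K0.image (fun e => g • e))).card : ℝ)
      ≤ κ ^ S.card * (Fintype.card G : ℝ) := by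
  classical
  by_cases hex : ∃ g₀ : G, S ⊆ K0.image (fun e => g₀ • e)
  · obtain ⟨g₀, hg₀⟩ := hex
    have hg₀' : S ⊆ g₀ • K0 := hg₀
    set F : Finset X := g₀⁻¹ • S with hFdef
    have hFK : F ⊆ K0 := by
      rw [hFdef, Finset.smul_finset_subset_iff, inv_inv]
      exact hg₀'
    have hcard : F.card = S.card := by rw [hFdef, Finset.card_smul_finset]
    have h := hF F hFK
    rw [hcard] at h
    refine le_trans (le_of_eq ?_) h
    congr 1
    refine Finset.card_bij' (fun g _ => g⁻¹ * g₀) (fun g _ => g₀ * g⁻¹) ?_ ?_ ?_ ?_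
    · intro g hg
      simp only [Finset.mem_filter, Finset.mem_univ, true_and] at hg ⊢
      have hg' : S ⊆ g • K0 := hg
      show (g⁻¹ * g₀) • F ⊆ K0
      rw [hFdef, smul_smul, mul_assoc, mul_inv_cancel, mul_one, Finset.smul_finset_subset_iff,
        inv_inv]
      exact hg'
    · intro g hg
      simp only [Finset.mem_filter, Finset.mem_univ, true_and] at hg ⊢
      have hg' : g • F ⊆ K0 := hg
      show S ⊆ (g₀ * g⁻¹) • K0
      rw [hFdef, smul_smul, Finset.smul_finset_subset_iff] at hg'
      rw [mul_inv_rev, inv_inv] at hg'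
      exact hg'
    · intro g _
      simp
    · intro g _
      simp
  · push Not at hex
    have : univ.filter (fun g : G => S ⊆ K0.image (fun e => g • e)) = ∅ := by
      rw [Finset.filter_eq_empty_iff]
      intro g _
      exact hex g
    rw [this]
    simp only [Finset.card_empty, Nat.cast_zero]
    positivity

/-- a fractional cover has large cost at a density at which all orbits are large -/
lemma frac_cost {K0 : Finset X} {κ : ℝ} (hκ : 0 ≤ κ)
    (hF : ∀ F : Finset X, F ⊆ K0 →
      ((univ.filter (fun g : G => F.image (fun x => g • x) ⊆ K0)).card : ℝ)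
        ≤ κ ^ F.card * (Fintype.card G : ℝ)) {f : Finset X → ℝ} (hf0 : ∀ S, 0 ≤ f S)
    (hcov : ∀ g : G, 1 ≤ ∑ S ∈ (K0.image (fun e => g • e)).powerset, f S) :
    1 ≤ ∑ S : Finset X, f S * κ ^ S.card := by
  classical
  have hG : (0 : ℝ) < (Fintype.card G : ℝ) := by exact_mod_cast Fintype.card_pos
  have h1 : (Fintype.card G : ℝ) ≤ ∑ g : G, ∑ S ∈ (K0.image (fun e => g • e)).powerset, f S := by
    have : ∑ _g : G, (1 : ℝ) ≤ ∑ g : G, ∑ S ∈ (K0.image (fun e => g • e)).powerset, f S :=
      Finset.sum_le_sum (fun g _ => hcov g)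
    simpa using this
  have h2 : ∑ g : G, ∑ S ∈ (K0.image (fun e => g • e)).powerset, f S
      = ∑ S : Finset X, f S * ((univ.filter (fun g : G => S ⊆ K0.image (fun e => g • e))).card : ℝ)
      := by
    have e1 : ∀ g : G, ∑ S ∈ (K0.image (fun e => g • e)).powerset, f S
        = ∑ S : Finset X, if S ⊆ K0.image (fun e => g • e) then f S else 0 := by
      intro g
      rw [← Finset.sum_filter]
      refine Finset.sum_congr ?_ (fun _ _ => rfl)
      ext S
      simp
    simp_rw [e1]
    rw [Finset.sum_comm]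
    refine Finset.sum_congr rfl (fun S _ => ?_)
    rw [← Finset.sum_filter, Finset.sum_const, nsmul_eq_mul, mul_comm]
  rw [h2] at h1
  have h3 : ∑ S : Finset X, f S
      * ((univ.filter (fun g : G => S ⊆ K0.image (fun e => g • e))).card : ℝ)
      ≤ ∑ S : Finset X, f S * (κ ^ S.card * (Fintype.card G : ℝ)) :=
    Finset.sum_le_sum (fun S _ => mul_le_mul_of_nonneg_left (spread_of hκ hF S) (hf0 S))
  have h4 : ∑ S : Finset X, f S * (κ ^ S.card * (Fintype.card G : ℝ))
      = (∑ S : Finset X, f S * κ ^ S.card) * (Fintype.card G : ℝ) := by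
    rw [Finset.sum_mul]
    exact Finset.sum_congr rfl (fun S _ => by ring)
  rw [h4] at h3
  have h5 : 1 * (Fintype.card G : ℝ) ≤ (∑ S : Finset X, f S * κ ^ S.card)
      * (Fintype.card G : ℝ) := by linarith
  exact le_of_mul_le_mul_right h5 hG

end

end Vale.Agent.P034
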